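import Vale.Agent.P088.R2.H406.U.Jet

/-!
# P088, zone C: bounds of the jets of a composition and of a product
-/

open Set Filter
open scoped ContDiff Topology

noncomputable section

namespace Vale.Agent.P088.R2.H406.U

open Vale.Agent.P088.LR Vale.Agent.P088.HY
open Vale.Agent.P088.R2.H644
open Vale.Agent.P088.R2.H406.Z
open Vale.Agent.P088.R2.H406.C (mb)

variable {n : ℕ}

theorem ab2 {a b A B : ℝ} (ha : |a| ≤ A) (hb : |b| ≤ B) : |a + b| ≤ A + B :=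
  (abs_add_le a b).trans (add_le_add ha hb)

/-- Bounds of the jet of order `≤ 4` in the coordinate directions. -/
structure JB (f : VV n → ℝ) (z : VV n) (B₁ B₂ B₃ B₄ : ℝ) : Prop where
  j1 : ∀ a ∈ Dir n, |dd a f z| ≤ B₁
  j2 : ∀ a ∈ Dir n, ∀ b ∈ Dir n, |dd a (dd b f) z| ≤ B₂
  j3 : ∀ a ∈ Dir n, ∀ b ∈ Dir n, ∀ c ∈ Dir n, |dd a (dd b (dd c f)) z| ≤ B₃
  j4 : ∀ a ∈ Dir n, ∀ b ∈ Dir n, ∀ c ∈ Dir n, ∀ d ∈ Dir n,
    |dd a (dd b (dd c (dd d f))) z| ≤ B₄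

theorem JB.mono {f : VV n → ℝ} {z : VV n} {B₁ B₂ B₃ B₄ C₁ C₂ C₃ C₄ : ℝ}
    (h : JB f z B₁ B₂ B₃ B₄) (h1 : B₁ ≤ C₁) (h2 : B₂ ≤ C₂) (h3 : B₃ ≤ C₃) (h4 : B₄ ≤ C₄) :
    JB f z C₁ C₂ C₃ C₄ :=
  ⟨fun a ha => (h.j1 a ha).trans h1, fun a ha b hb => (h.j2 a ha b hb).trans h2,
    fun a ha b hb c hc => (h.j3 a ha b hb c hc).trans h3,
    fun a ha b hb c hc d hd => (h.j4 a ha b hb c hc d hd).trans h4⟩

/-! ### Sums -/

section sub

variable {p q : VV n → ℝ}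

theorem ad1 (hp : ContDiff ℝ ∞ p) (hq : ContDiff ℝ ∞ q) (a : VV n) :
    dd a (fun z => p z + q z) = fun z => dd a p z + dd a q z :=
  funext fun z => ((HD_of hp a z).add (HD_of hq a z)).e

theorem JB.add {B₁ B₂ B₃ B₄ C₁ C₂ C₃ C₄ : ℝ} {z : VV n} (hp : ContDiff ℝ ∞ p)
    (hq : ContDiff ℝ ∞ q) (P : JB p z B₁ B₂ B₃ B₄) (Q : JB q z C₁ C₂ C₃ C₄) :
    JB (fun z => p z + q z) z (B₁ + C₁) (B₂ + C₂) (B₃ + C₃) (B₄ + C₄) where
  j1 a ha := by
    rw [ad1 hp hq]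
    exact ab2 (P.j1 a ha) (Q.j1 a ha)
  j2 a ha b hb := by
    rw [ad1 hp hq, ad1 (smooth_dd hp b) (smooth_dd hq b)]
    exact ab2 (P.j2 a ha b hb) (Q.j2 a ha b hb)
  j3 a ha b hb c hc := by
    rw [ad1 hp hq, ad1 (smooth_dd hp c) (smooth_dd hq c),
      ad1 (smooth_dd (smooth_dd hp c) b) (smooth_dd (smooth_dd hq c) b)]
    exact ab2 (P.j3 a ha b hb c hc) (Q.j3 a ha b hb c hc)
  j4 a ha b hb c hc d hd := by
    rw [ad1 hp hq, ad1 (smooth_dd hp d) (smooth_dd hq d),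
      ad1 (smooth_dd (smooth_dd hp d) c) (smooth_dd (smooth_dd hq d) c),
      ad1 (smooth_dd (smooth_dd (smooth_dd hp d) c) b)
        (smooth_dd (smooth_dd (smooth_dd hq d) c) b)]
    exact ab2 (P.j4 a ha b hb c hc d hd) (Q.j4 a ha b hb c hc d hd)

end sub

/-! ### Products of numbers -/

theorem m2 {x y : ℝ} (hx : |x| ≤ 2) (hy : |y| ≤ 2) : |x * y| ≤ 4 :=
  (mb hx hy).trans (le_of_eq (by ring))

theorem m3 {x y w : ℝ} (hx : |x| ≤ 2) (hy : |y| ≤ 2) (hw : |w| ≤ 2) : |x * (y * w)| ≤ 8 :=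
  (mb hx (m2 hy hw)).trans (le_of_eq (by ring))

theorem m4 {x y w t : ℝ} (hx : |x| ≤ 2) (hy : |y| ≤ 2) (hw : |w| ≤ 2) (ht : |t| ≤ 2) :
    |x * (y * (w * t))| ≤ 16 := (mb hx (m3 hy hw ht)).trans (le_of_eq (by ring))

/-! ### Compositions -/

section cmp

variable {u : VV n → ℝ} {f : ℕ → ℝ → ℝ} {z : VV n} {ρ F₁ F₂ F₃ F₄ : ℝ}

theorem jb_cmp (hu : ContDiff ℝ ∞ u) (hf : Chn f) (U : JB u z 2 ρ ρ ρ) (ρ0 : 0 ≤ ρ)
    (ρ2 : ρ ≤ 2) (h1 : |f 1 (u z)| ≤ F₁) (h2 : |f 2 (u z)| ≤ F₂) (h3 : |f 3 (u z)| ≤ F₃)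
    (h4 : |f 4 (u z)| ≤ F₄) :
    JB (fun z => f 0 (u z)) z (F₁ * 2) (F₂ * 4 + F₁ * ρ)
      (F₃ * 8 + F₂ * (6 * ρ) + F₁ * ρ)
      (F₄ * 16 + F₃ * (24 * ρ) + F₂ * (14 * ρ) + F₁ * ρ) where
  j1 a ha := by
    rw [cmp1 hu hf]
    exact mb h1 (U.j1 a ha)
  j2 b hb a ha := by
    rw [cmp2 hu hf]
    exact ab2 (mb h2 (m2 (U.j1 b hb) (U.j1 a ha))) (mb h1 (U.j2 b hb a ha))
  j3 c hc b hb a ha := by
    rw [cmp3 hu hf]
    have k2 : |dd c (dd b u) z * dd a u z + dd b u z * dd c (dd a u) z +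
          dd c u z * dd b (dd a u) z| ≤ 6 * ρ :=
      (ab2 (ab2 (mb (U.j2 c hc b hb) (U.j1 a ha)) (mb (U.j1 b hb) (U.j2 c hc a ha)))
        (mb (U.j1 c hc) (U.j2 b hb a ha))).trans (le_of_eq (by ring))
    exact ab2 (ab2 (mb h3 (m3 (U.j1 c hc) (U.j1 b hb) (U.j1 a ha))) (mb h2 k2))
      (mb h1 (U.j3 c hc b hb a ha))
  j4 d hd c hc b hb a ha := by
    rw [cmp4 hu hf]
    have ua := U.j1 a ha
    have ub := U.j1 b hb
    have uc := U.j1 c hc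
    have ud := U.j1 d hd
    have udc := U.j2 d hd c hc
    have udb := U.j2 d hd b hb
    have uda := U.j2 d hd a ha
    have ucb := U.j2 c hc b hb
    have uca := U.j2 c hc a ha
    have uba := U.j2 b hb a ha
    have k2 : |dd d (dd c u) z * (dd b u z * dd a u z) +
        dd c u z * (dd d (dd b u) z * dd a u z) + dd c u z * (dd b u z * dd d (dd a u) z) +
        dd d u z * (dd c (dd b u) z * dd a u z) + dd d u z * (dd b u z * dd c (dd a u) z) +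
        dd d u z * (dd c u z * dd b (dd a u) z)| ≤ 24 * ρ :=
      (ab2 (ab2 (ab2 (ab2 (ab2 (mb udc (m2 ub ua)) (mb uc (mb udb ua))) (mb uc (mb ub uda)))
        (mb ud (mb ucb ua))) (mb ud (mb ub uca))) (mb ud (mb uc uba))).trans
        (le_of_eq (by ring))
    have rr : ρ * ρ ≤ 2 * ρ := mul_le_mul_of_nonneg_right ρ2 ρ0
    have k3 : |dd d (dd c (dd b u)) z * dd a u z +
        dd c (dd b u) z * dd d (dd a u) z + dd d (dd b u) z * dd c (dd a u) z +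
        dd b u z * dd d (dd c (dd a u)) z + dd d (dd c u) z * dd b (dd a u) z +
        dd c u z * dd d (dd b (dd a u)) z + dd d u z * dd c (dd b (dd a u)) z| ≤ 14 * ρ :=
      (ab2 (ab2 (ab2 (ab2 (ab2 (ab2 (mb (U.j3 d hd c hc b hb) ua) (mb ucb uda))
        (mb udb uca)) (mb ub (U.j3 d hd c hc a ha))) (mb udc uba))
        (mb uc (U.j3 d hd b hb a ha))) (mb ud (U.j3 c hc b hb a ha))).trans (by linarith)
    exact ab2 (ab2 (ab2 (mb h4 (m4 ud uc ub ua)) (mb h3 k2)) (mb h2 k3))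
      (mb h1 (U.j4 d hd c hc b hb a ha))

end cmp

/-! ### Products -/

theorem jb_pr4 {g h : VV n → ℝ} {z : VV n} {g₀ g₁ g₂ g₃ g₄ h₀ h₁ h₂ h₃ h₄ : ℝ}
    (hg : ContDiff ℝ ∞ g) (hh : ContDiff ℝ ∞ h) (G : JB g z g₁ g₂ g₃ g₄)
    (H : JB h z h₁ h₂ h₃ h₄) (G0 : |g z| ≤ g₀) (H0 : |h z| ≤ h₀) {a b c d : VV n}
    (ha : a ∈ Dir n) (hb : b ∈ Dir n) (hc : c ∈ Dir n) (hd : d ∈ Dir n) :
    |dd d (dd c (dd b (dd a (fun z => g z * h z)))) z| ≤
      g₄ * h₀ + 4 * (g₃ * h₁) + 6 * (g₂ * h₂) + 4 * (g₁ * h₃) + g₀ * h₄ := by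
  rw [pr4 hg hh]
  have k1 := mb (G.j4 d hd c hc b hb a ha) H0
  have k2 := ab2 (ab2 (ab2 (mb (G.j3 c hc b hb a ha) (H.j1 d hd))
    (mb (G.j3 d hd b hb a ha) (H.j1 c hc))) (mb (G.j3 d hd c hc a ha) (H.j1 b hb)))
    (mb (G.j3 d hd c hc b hb) (H.j1 a ha))
  have k3 := ab2 (ab2 (ab2 (ab2 (ab2 (mb (G.j2 b hb a ha) (H.j2 d hd c hc))
    (mb (G.j2 c hc a ha) (H.j2 d hd b hb))) (mb (G.j2 d hd a ha) (H.j2 c hc b hb)))
    (mb (G.j2 c hc b hb) (H.j2 d hd a ha))) (mb (G.j2 d hd b hb) (H.j2 c hc a ha)))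
    (mb (G.j2 d hd c hc) (H.j2 b hb a ha))
  have k4 := ab2 (ab2 (ab2 (mb (G.j1 a ha) (H.j3 d hd c hc b hb))
    (mb (G.j1 b hb) (H.j3 d hd c hc a ha))) (mb (G.j1 c hc) (H.j3 d hd b hb a ha)))
    (mb (G.j1 d hd) (H.j3 c hc b hb a ha))
  have k5 := mb G0 (H.j4 d hd c hc b hb a ha)
  exact (ab2 (ab2 (ab2 (ab2 k1 k2) k3) k4) k5).trans (le_of_eq (by ring))

/-! ### The jet of `|x - y|²` -/

theorem jb_qq {z : VV n} (hz : qq z ≤ 1) : JB qq z 2 2 2 2 := by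
  have hq : ∀ i : Fin n, |qv i z| ≤ 1 := by
    intro i
    have h1 : qv i z ^ 2 ≤ qq z := by
      rw [qq_eq]
      exact Finset.single_le_sum (f := fun i => qv i z ^ 2) (fun j _ => sq_nonneg _)
        (Finset.mem_univ i)
    exact abs_le_one_iff_mul_self_le_one.2 (by nlinarith)
  have e1 : ∀ a : VV n, dd a qq = fun z => 2 * ∑ i, qv i z * (a.1 i - a.2 i) :=
    fun a => funext fun z => dd_qq a z
  have e2 : ∀ a b : VV n, dd b (dd a qq) = fun _ => 2 * ∑ i, (b.1 i - b.2 i) * (a.1 i - a.2 i) := by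
    intro a b
    funext w
    rw [e1]
    have hs : ∀ i ∈ (Finset.univ : Finset (Fin n)),
        HD b (fun z => qv i z * (a.1 i - a.2 i)) ((b.1 i - b.2 i) * (a.1 i - a.2 i)) w := by
      intro i _
      have := (HD.qv b w i).cmul (a.1 i - a.2 i)
      have e : (fun z => (a.1 i - a.2 i) * qv i z) = fun z : VV n => qv i z * (a.1 i - a.2 i) :=
        funext fun z => mul_comm _ _
      rw [e] at this
      exact ⟨this.d, this.e.trans (mul_comm _ _)⟩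
    have h2 : HD b (fun z => ∑ i, qv i z * (a.1 i - a.2 i))
        (∑ i, (b.1 i - b.2 i) * (a.1 i - a.2 i)) w :=
      ⟨DifferentiableAt.fun_sum fun i hi => (hs i hi).d, by
        rw [dd_sum Finset.univ (F := fun i z => qv i z * (a.1 i - a.2 i))
          fun i hi => (hs i hi).d]
        exact Finset.sum_congr rfl fun i hi => (hs i hi).e⟩
    exact (h2.cmul 2).e
  have e3 : ∀ (a : VV n) (r : ℝ), dd a (fun _ : VV n => r) = fun _ => 0 := by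
    intro a r
    funext w
    simp [dd]
  refine ⟨?_, ?_, ?_, ?_⟩
  · rintro a ⟨i, rfl | rfl⟩
    · rw [e1]
      simp only [Pi.single_apply, Pi.zero_apply, sub_zero, mul_ite, mul_one, mul_zero,
        Finset.sum_ite_eq', Finset.mem_univ, if_true]
      rw [abs_mul, abs_of_pos (by norm_num : (0 : ℝ) < 2)]
      linarith [hq i]
    · rw [e1]
      simp only [Pi.single_apply, Pi.zero_apply, zero_sub, mul_neg, mul_ite, mul_one, mul_zero,
        Finset.sum_neg_distrib, Finset.sum_ite_eq', Finset.mem_univ, if_true]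
      rw [abs_neg, abs_mul, abs_of_pos (by norm_num : (0 : ℝ) < 2)]
      linarith [hq i]
  · have key : ∀ i j : Fin n, |(2 : ℝ) * (if i = j then 1 else 0)| ≤ 2 := by
      intro i j
      split_ifs <;> norm_num
    rintro a ⟨i, rfl | rfl⟩ b ⟨j, rfl | rfl⟩
    · rw [e2]
      simp only [Pi.single_apply, Pi.zero_apply, sub_zero, mul_ite, mul_one, mul_zero,
        Finset.sum_ite_eq', Finset.mem_univ, if_true]
      split_ifs <;> norm_num
    · rw [e2]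
      simp only [Pi.single_apply, Pi.zero_apply, sub_zero, zero_sub, mul_neg, mul_ite, mul_one,
        mul_zero, Finset.sum_neg_distrib, Finset.sum_ite_eq', Finset.mem_univ, if_true]
      split_ifs <;> norm_num
    · rw [e2]
      simp only [Pi.single_apply, Pi.zero_apply, sub_zero, zero_sub, mul_ite, mul_one,
        mul_zero, Finset.sum_ite_eq', Finset.mem_univ, if_true]
      split_ifs <;> norm_num
    · rw [e2]
      simp only [Pi.single_apply, Pi.zero_apply, zero_sub, mul_neg, mul_ite, mul_one,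
        mul_zero, Finset.sum_neg_distrib, Finset.sum_ite_eq', Finset.mem_univ, if_true]
      split_ifs <;> norm_num
  · intro a _ b _ c _
    rw [e2, e3]
    norm_num
  · intro a _ b _ c _ d _
    rw [e2, e3, e3]
    norm_num

end Vale.Agent.P088.R2.H406.U
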