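import Vale.Agent.P088.R2.H406.Z.Low

/-!
# P088, zone C: the jets of a composition
-/

open Set Filter
open scoped ContDiff Topology

noncomputable section

namespace Vale.Agent.P088.R2.H406.U

open Vale.Agent.P088.LR Vale.Agent.P088.HY
open Vale.Agent.P088.R2.H644
open Vale.Agent.P088.R2.H406.Z

variable {n : ℕ} {u : VV n → ℝ} {f : ℕ → ℝ → ℝ}

/-- The coordinate directions. -/
def Dir (n : ℕ) : Set (VV n) := {v | ∃ i, v = (Pi.single i 1, 0) ∨ v = (0, Pi.single i 1)}

theorem dirx (i : Fin n) : ((Pi.single i 1, 0) : VV n) ∈ Dir n := ⟨i, Or.inl rfl⟩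

theorem diry (i : Fin n) : ((0, Pi.single i 1) : VV n) ∈ Dir n := ⟨i, Or.inr rfl⟩

theorem sm_cmp (hu : ContDiff ℝ ∞ u) (hf : Chn f) (k : ℕ) :
    ContDiff ℝ ∞ (fun z => f k (u z)) := (hf.sm k).comp hu

theorem HD_cmp (hu : ContDiff ℝ ∞ u) (hf : Chn f) (k : ℕ) (v z : VV n) :
    HD v (fun z => f k (u z)) (f (k + 1) (u z) * dd v u z) z := (HD_of hu v z).comp (hf.d k _)

theorem cmp1 (hu : ContDiff ℝ ∞ u) (hf : Chn f) (k : ℕ) (a : VV n) :
    dd a (fun z => f k (u z)) = fun z => f (k + 1) (u z) * dd a u z :=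
  funext fun z => (HD_cmp hu hf k a z).e

theorem cmp2 (hu : ContDiff ℝ ∞ u) (hf : Chn f) (k : ℕ) (a b : VV n) :
    dd b (dd a (fun z => f k (u z))) = fun z => f (k + 2) (u z) * (dd b u z * dd a u z) +
      f (k + 1) (u z) * dd b (dd a u) z := by
  funext z
  rw [cmp1 hu hf, ((HD_cmp hu hf (k + 1) b z).mul (HD_of (smooth_dd hu a) b z)).e]
  ring

theorem cmp3 (hu : ContDiff ℝ ∞ u) (hf : Chn f) (k : ℕ) (a b c : VV n) :
    dd c (dd b (dd a (fun z => f k (u z)))) = fun z =>
      f (k + 3) (u z) * (dd c u z * (dd b u z * dd a u z)) +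
      f (k + 2) (u z) * (dd c (dd b u) z * dd a u z + dd b u z * dd c (dd a u) z +
        dd c u z * dd b (dd a u) z) + f (k + 1) (u z) * dd c (dd b (dd a u)) z := by
  funext z
  rw [cmp2 hu hf, (((HD_cmp hu hf (k + 2) c z).mul ((HD_of (smooth_dd hu b) c z).mul
    (HD_of (smooth_dd hu a) c z))).add ((HD_cmp hu hf (k + 1) c z).mul
    (HD_of (smooth_dd (smooth_dd hu a) b) c z))).e]
  ring

theorem cmp4 (hu : ContDiff ℝ ∞ u) (hf : Chn f) (k : ℕ) (a b c d : VV n) (z : VV n) :
    dd d (dd c (dd b (dd a (fun z => f k (u z))))) z =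
      f (k + 4) (u z) * (dd d u z * (dd c u z * (dd b u z * dd a u z))) +
      f (k + 3) (u z) * (dd d (dd c u) z * (dd b u z * dd a u z) +
        dd c u z * (dd d (dd b u) z * dd a u z) + dd c u z * (dd b u z * dd d (dd a u) z) +
        dd d u z * (dd c (dd b u) z * dd a u z) + dd d u z * (dd b u z * dd c (dd a u) z) +
        dd d u z * (dd c u z * dd b (dd a u) z)) +
      f (k + 2) (u z) * (dd d (dd c (dd b u)) z * dd a u z +
        dd c (dd b u) z * dd d (dd a u) z + dd d (dd b u) z * dd c (dd a u) z +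
        dd b u z * dd d (dd c (dd a u)) z + dd d (dd c u) z * dd b (dd a u) z +
        dd c u z * dd d (dd b (dd a u)) z + dd d u z * dd c (dd b (dd a u)) z) +
      f (k + 1) (u z) * dd d (dd c (dd b (dd a u))) z := by
  have ua := HD_of (smooth_dd hu a) d z
  have ub := HD_of (smooth_dd hu b) d z
  have uc := HD_of (smooth_dd hu c) d z
  have uab := HD_of (smooth_dd (smooth_dd hu a) b) d z
  have uac := HD_of (smooth_dd (smooth_dd hu a) c) d z
  have ubc := HD_of (smooth_dd (smooth_dd hu b) c) d z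
  have uabc := HD_of (smooth_dd (smooth_dd (smooth_dd hu a) b) c) d z
  rw [cmp3 hu hf, ((((HD_cmp hu hf (k + 3) d z).mul (uc.mul (ub.mul ua))).add
    ((HD_cmp hu hf (k + 2) d z).mul (((ubc.mul ua).add (ub.mul uac)).add
    (uc.mul uab)))).add ((HD_cmp hu hf (k + 1) d z).mul uabc)).e]
  ring

/-! ### Products -/

variable {g h : VV n → ℝ}

theorem pr1 (hg : ContDiff ℝ ∞ g) (hh : ContDiff ℝ ∞ h) (a : VV n) :
    dd a (fun z => g z * h z) = fun z => dd a g z * h z + g z * dd a h z :=
  funext fun z => ((HD_of hg a z).mul (HD_of hh a z)).e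

theorem pr2 (hg : ContDiff ℝ ∞ g) (hh : ContDiff ℝ ∞ h) (a b : VV n) :
    dd b (dd a (fun z => g z * h z)) = fun z => dd b (dd a g) z * h z + dd a g z * dd b h z +
      (dd b g z * dd a h z + g z * dd b (dd a h) z) := by
  funext z
  rw [pr1 hg hh, (((HD_of (smooth_dd hg a) b z).mul (HD_of hh b z)).add
    ((HD_of hg b z).mul (HD_of (smooth_dd hh a) b z))).e]

theorem pr3 (hg : ContDiff ℝ ∞ g) (hh : ContDiff ℝ ∞ h) (a b c : VV n) :
    dd c (dd b (dd a (fun z => g z * h z))) = fun z =>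
      dd c (dd b (dd a g)) z * h z + (dd b (dd a g) z * dd c h z + dd c (dd a g) z * dd b h z +
        dd c (dd b g) z * dd a h z) + (dd a g z * dd c (dd b h) z + dd b g z * dd c (dd a h) z +
        dd c g z * dd b (dd a h) z) + g z * dd c (dd b (dd a h)) z := by
  funext z
  have ga := smooth_dd hg a
  have gb := smooth_dd hg b
  have ha := smooth_dd hh a
  have hb := smooth_dd hh b
  rw [pr2 hg hh, ((((HD_of (smooth_dd ga b) c z).mul (HD_of hh c z)).add
    ((HD_of ga c z).mul (HD_of hb c z))).add (((HD_of gb c z).mul (HD_of ha c z)).add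
    ((HD_of hg c z).mul (HD_of (smooth_dd ha b) c z)))).e]
  ring

theorem pr4 (hg : ContDiff ℝ ∞ g) (hh : ContDiff ℝ ∞ h) (a b c d z : VV n) :
    dd d (dd c (dd b (dd a (fun z => g z * h z)))) z =
      dd d (dd c (dd b (dd a g))) z * h z +
      (dd c (dd b (dd a g)) z * dd d h z + dd d (dd b (dd a g)) z * dd c h z +
        dd d (dd c (dd a g)) z * dd b h z + dd d (dd c (dd b g)) z * dd a h z) +
      (dd b (dd a g) z * dd d (dd c h) z + dd c (dd a g) z * dd d (dd b h) z +
        dd d (dd a g) z * dd c (dd b h) z + dd c (dd b g) z * dd d (dd a h) z +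
        dd d (dd b g) z * dd c (dd a h) z + dd d (dd c g) z * dd b (dd a h) z) +
      (dd a g z * dd d (dd c (dd b h)) z + dd b g z * dd d (dd c (dd a h)) z +
        dd c g z * dd d (dd b (dd a h)) z + dd d g z * dd c (dd b (dd a h)) z) +
      g z * dd d (dd c (dd b (dd a h))) z := by
  have ga := smooth_dd hg a
  have gb := smooth_dd hg b
  have gc := smooth_dd hg c
  have gab := smooth_dd ga b
  have gac := smooth_dd ga c
  have gbc := smooth_dd gb c
  have gabc := smooth_dd gab c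
  have ha := smooth_dd hh a
  have hb := smooth_dd hh b
  have hc := smooth_dd hh c
  have hab := smooth_dd ha b
  have hac := smooth_dd ha c
  have hbc := smooth_dd hb c
  have habc := smooth_dd hab c
  rw [pr3 hg hh, (((((HD_of gabc d z).mul (HD_of hh d z)).add
    ((((HD_of gab d z).mul (HD_of hc d z)).add ((HD_of gac d z).mul (HD_of hb d z))).add
      ((HD_of gbc d z).mul (HD_of ha d z)))).add
    ((((HD_of ga d z).mul (HD_of hbc d z)).add ((HD_of gb d z).mul (HD_of hac d z))).add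
      ((HD_of gc d z).mul (HD_of hab d z)))).add
    ((HD_of hg d z).mul (HD_of habc d z))).e]
  ring

end Vale.Agent.P088.R2.H406.U
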